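import Vale.Agent.P124.H186.Defs

/-!
P124, piece T5 (dynamics), helper447. The geometric theorem T4 is a hypothesis (`StmtT4`).
-/

namespace P124H447

open P124H186

/-- the statement of the geometric theorem T4 -/
def StmtT4 : Prop := ∀ (g : Geo) (n : ℕ), Valid n g → ∀ t0 : ℕ, t0 ≤ n → ∀ rho : ℝ,
    0 < rho → ∃ ts w R, IsCS g t0 rho ts w R

/-! ### the cone function -/

lemma psi_ge1 (r d : ℝ) : d / 10^15 ≤ Psi r d := le_max_left _ _

lemma psi_ge2 (r d : ℝ) : d - (1 - 1/10^15) * r ≤ Psi r d := le_max_right _ _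

lemma psi_le {r d x : ℝ} (h1 : d / 10^15 ≤ x) (h2 : d - (1 - 1/10^15) * r ≤ x) :
    Psi r d ≤ x := max_le h1 h2

lemma psi_zero {d : ℝ} (hd : 0 ≤ d) : Psi 0 d = d := by
  apply le_antisymm
  · apply psi_le
    · have : d / 10^15 ≤ d / 1 := by
        apply div_le_div_of_nonneg_left hd (by norm_num) (by norm_num)
      simpa using this
    · simp
  · have := psi_ge2 0 d
    simpa using this

/-- both branches have slope at least `1/b` -/
lemma psi_add {r d p : ℝ} (hp : 0 ≤ p) : Psi r d + p / 10^15 ≤ Psi r (p + d) := by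
  have h1 := psi_ge1 r (p + d)
  have h2 := psi_ge2 r (p + d)
  have : Psi r d ≤ Psi r (p + d) - p / 10^15 := by
    apply psi_le
    · linarith
    · have : p / 10^15 ≤ p := by
        rw [div_le_iff₀ (by norm_num)]
        nlinarith
      linarith
  linarith

/-- slope at most one -/
lemma psi_lip {r d d' e : ℝ} (he : 0 ≤ e) (hd : d ≤ d' + e) : Psi r d ≤ Psi r d' + e := by
  have h1 := psi_ge1 r d'
  have h2 := psi_ge2 r d'
  apply psi_le
  · have : e / 10^15 ≤ e := by
      rw [div_le_iff₀ (by norm_num)]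
      nlinarith
    have h3 : d / 10^15 ≤ (d' + e) / 10^15 := by
      apply div_le_div_of_nonneg_right hd (by norm_num)
    linarith
  · linarith

/-! ### generalities -/

lemma exists_mid {A B : Set ℝ} (hA : A.Nonempty) (hB : B.Nonempty)
    (h : ∀ a ∈ A, ∀ b ∈ B, a ≤ b) : ∃ x, (∀ a ∈ A, a ≤ x) ∧ (∀ b ∈ B, x ≤ b) := by
  obtain ⟨b0, hb0⟩ := hB
  refine ⟨sSup A, fun a ha => le_csSup ⟨b0, fun y hy => h y hy b0 hb0⟩ ha, fun b hb => ?_⟩
  exact csSup_le hA (fun a ha => h a ha b hb)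

lemma Valid.mono {n n' : ℕ} {g : Geo} (h : Valid n' g) (hn : n ≤ n') : Valid n g where
  D_self i hi := h.D_self i (hi.trans hn)
  D_symm i hi j hj := h.D_symm i (hi.trans hn) j (hj.trans hn)
  D_tri i hi j hj k hk := h.D_tri i (hi.trans hn) j (hj.trans hn) k (hk.trans hn)
  S_ne := h.S_ne
  S_congr t ht := h.S_congr t (ht.trans hn)
  S_neg t ht := h.S_neg t (ht.trans hn)
  S_lip t ht := h.S_lip t (ht.trans hn)
  S_res t ht := h.S_res t (lt_of_lt_of_le ht hn)
  A_ext t ht := h.A_ext t (lt_of_lt_of_le ht hn)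
  A_flat t ht := h.A_flat t (lt_of_lt_of_le ht hn)
  A_le t ht := h.A_le t (lt_of_lt_of_le ht hn)
  A_eq t ht := h.A_eq t (lt_of_lt_of_le ht hn)
  B_ext t ht := h.B_ext t (lt_of_lt_of_le ht hn)

lemma Agree.mono {n n' : ℕ} {g g' : Geo} (h : Agree n' g g') (hn : n ≤ n') : Agree n g g' where
  D i hi j hj := h.D i (hi.trans hn) j (hj.trans hn)
  isA i hi := h.isA i (hi.trans hn)
  P i hi := h.P i (hi.trans hn)
  S i hi := h.S i (hi.trans hn)

lemma Agree.refl (n : ℕ) (g : Geo) : Agree n g g where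
  D _ _ _ _ := rfl
  isA _ _ := Iff.rfl
  P _ _ _ _ := rfl
  S _ _ := rfl

lemma Agree.symm' {n : ℕ} {g g' : Geo} (h : Agree n g g') : Agree n g' g where
  D i hi j hj := (h.D i hi j hj).symm
  isA i hi := (h.isA i hi).symm
  P i hi j hj := (h.P i hi j hj).symm
  S i hi := (h.S i hi).symm

lemma Agree.trans' {n : ℕ} {g g' g'' : Geo} (h : Agree n g g') (h' : Agree n g' g'') :
    Agree n g g'' where
  D i hi j hj := (h.D i hi j hj).trans (h'.D i hi j hj)
  isA i hi := (h.isA i hi).trans (h'.isA i hi)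
  P i hi j hj := (h.P i hi j hj).trans (h'.P i hi j hj)
  S i hi := (h.S i hi).trans (h'.S i hi)

lemma D_nonneg {n : ℕ} {g : Geo} (hg : Valid n g) {i j : ℕ} (hi : i ≤ n) (hj : j ≤ n) :
    0 ≤ g.D i j := by
  have h1 := hg.D_tri i hi j hj i hi
  have h2 := hg.D_self i hi
  have h3 := hg.D_symm i hi j hj
  linarith

/-- flat functionals exist -/
lemma exists_flat {n : ℕ} {g : Geo} (hg : Valid n g) :
    ∃ s ∈ g.S n, ∀ i ≤ n, ∀ j ≤ n, |s i - s j| ≤ g.D i j / 10^15 := by
  induction n with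
  | zero =>
    obtain ⟨s, hs⟩ := hg.S_ne
    refine ⟨s, hs, ?_⟩
    intro i hi j hj
    have : i = 0 := by omega
    have : j = 0 := by omega
    subst i j
    have := hg.D_self 0 le_rfl
    simp [this]
  | succ n ih =>
    obtain ⟨s, hs, hfl⟩ := ih (Valid.mono hg (Nat.le_succ n))
    have hself := hg.D_self (n+1) le_rfl
    by_cases hA : g.isA (n+1)
    · obtain ⟨s', hs', he⟩ := hg.A_ext n (Nat.lt_succ_self n) hA s hs
      have key : ∀ j ≤ n, |s' (n+1) - s' j| ≤ g.D (n+1) j / 10^15 := by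
        intro j hj
        obtain ⟨l, hl, hD⟩ := hg.A_eq n (Nat.lt_succ_self n) hA j hj
        have h1 := hg.A_flat n (Nat.lt_succ_self n) hA s' hs' l hl
        have h2 := hfl l hl j hj
        rw [← he l hl, ← he j hj] at h2
        rw [hD]
        have : |s' (n+1) - s' j| ≤ |s' (n+1) - s' l| + |s' l - s' j| := abs_sub_le _ _ _
        rw [add_div]
        linarith
      refine ⟨s', hs', ?_⟩
      intro i hi j hj
      rcases Nat.lt_or_ge i (n+1) with hi' | hi'
      · rcases Nat.lt_or_ge j (n+1) with hj' | hj'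
        · have := hfl i (by omega) j (by omega)
          rwa [← he i (by omega), ← he j (by omega)] at this
        · have : j = n+1 := by omega
          subst this
          have := key i (by omega)
          rwa [abs_sub_comm, hg.D_symm i hi (n+1) le_rfl]
      · have : i = n+1 := by omega
        subst this
        rcases Nat.lt_or_ge j (n+1) with hj' | hj'
        · exact key j (by omega)
        · have : j = n+1 := by omega
          subst this
          simp [hself]
    · -- B-born: McShane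
      obtain ⟨x, hx1, hx2⟩ := exists_mid
        (A := {x | ∃ l ≤ n, x = s l - g.D (n+1) l / 10^15})
        (B := {x | ∃ l ≤ n, x = s l + g.D (n+1) l / 10^15})
        ⟨_, 0, Nat.zero_le _, rfl⟩ ⟨_, 0, Nat.zero_le _, rfl⟩ (by
          rintro a ⟨l, hl, rfl⟩ b ⟨k, hk, rfl⟩
          have h1 := hfl l hl k hk
          have h2 := hg.D_tri l (by omega) (n+1) le_rfl k (by omega)
          have h3 := hg.D_symm l (by omega) (n+1) le_rfl
          have h4 : g.D l k / 10^15 ≤ (g.D (n+1) l + g.D (n+1) k) / 10^15 := by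
            apply div_le_div_of_nonneg_right (by linarith) (by norm_num)
          rw [add_div] at h4
          have := (abs_le.mp h1).2
          linarith)
      have key : ∀ j ≤ n, |x - s j| ≤ g.D (n+1) j / 10^15 := by
        intro j hj
        have h1 := hx1 _ ⟨j, hj, rfl⟩
        have h2 := hx2 _ ⟨j, hj, rfl⟩
        rw [abs_le]
        constructor <;> linarith
      have hupd : ∀ i ≤ n, Function.update s (n+1) x i = s i := by
        intro i hi
        rw [Function.update_of_ne (by omega)]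
      have hupd' : Function.update s (n+1) x (n+1) = x := Function.update_self _ _ _
      have hs' : Function.update s (n+1) x ∈ g.S n :=
        hg.S_congr n (by omega) s _ (fun i hi => (hupd i hi).symm) hs
      refine ⟨Function.update s (n+1) x, ?_, ?_⟩
      · apply hg.B_ext n (Nat.lt_succ_self n) hA _ hs'
        intro l hl
        rw [hupd', hupd l hl]
        refine (key l hl).trans ?_
        have h0 := D_nonneg hg le_rfl (show l ≤ n+1 by omega)
        rw [div_le_iff₀ (by norm_num)]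
        nlinarith
      · intro i hi j hj
        rcases Nat.lt_or_ge i (n+1) with hi' | hi'
        · rcases Nat.lt_or_ge j (n+1) with hj' | hj'
          · rw [hupd i (by omega), hupd j (by omega)]
            exact hfl i (by omega) j (by omega)
          · have : j = n+1 := by omega
            subst this
            rw [hupd', hupd i (by omega), abs_sub_comm, hg.D_symm i hi (n+1) le_rfl]
            exact key i (by omega)
        · have : i = n+1 := by omega
          subst this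
          rcases Nat.lt_or_ge j (n+1) with hj' | hj'
          · rw [hupd', hupd j (by omega)]
            exact key j (by omega)
          · have : j = n+1 := by omega
            subst this
            simp [hself]

/-! ### windows and pairs -/

/-- there are a functional and a level with `R` satisfied by `s`, `R'` by `-s` -/
def Win (n : ℕ) (g : Geo) (R R' : ℕ → ℝ → Prop) (Lam : ℝ) : Prop :=
  ∃ s ∈ g.S n, ∃ lam : ℝ, Sat s lam R ∧ Sat (-s) (Lam - lam) R'

variable {X : Type*} [PseudoMetricSpace X]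

/-- pair of constraints -/
def PW (n : ℕ) (g : Geo) (m : ℕ → X) (R : ℕ → ℝ → Prop) (a : ℕ) (l : ℝ)
    (R' : ℕ → ℝ → Prop) (a' : ℕ) (l' : ℝ) : Prop :=
  ∀ Lam < dist (m a) (m a') - l - l', Win n g R R' Lam

lemma PW.symm {n : ℕ} {g : Geo} (hg : Valid n g) {m : ℕ → X} {R a l R' a' l'}
    (h : PW n g m R a l R' a' l') : PW n g m R' a' l' R a l := by
  intro Lam hLam
  obtain ⟨s, hs, lam, h1, h2⟩ := h Lam (by rw [dist_comm]; linarith)
  refine ⟨-s, hg.S_neg n le_rfl s hs, Lam - lam, h2, ?_⟩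
  simpa using h1

lemma Sat.mono {s : ℕ → ℝ} {lam lam' : ℝ} {R} (h : Sat s lam R) (hl : lam' ≤ lam) :
    Sat s lam' R := fun u q hq => hl.trans (h u q hq)

/-- reduction of a constraint to another one -/
def Red (n : ℕ) (g : Geo) (m : ℕ → X) (R : ℕ → ℝ → Prop) (a : ℕ) (l : ℝ)
    (R1 : ℕ → ℝ → Prop) (a1 : ℕ) (l1 : ℝ) : Prop :=
  ∃ gam : ℝ, (∀ s ∈ g.S n, ∀ lam, Sat s lam R1 → Sat s (lam + gam) R) ∧
    l1 + dist (m a) (m a1) ≤ gam + l

lemma Red.refl (n : ℕ) (g : Geo) (m : ℕ → X) (R : ℕ → ℝ → Prop) (a : ℕ) (l : ℝ) :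
    Red n g m R a l R a l := ⟨0, fun s _ lam h => by simpa using h, by simp⟩

lemma Red.trans {n : ℕ} {g : Geo} {m : ℕ → X} {R a l R1 a1 l1 R2 a2 l2}
    (h : Red n g m R a l R1 a1 l1) (h' : Red n g m R1 a1 l1 R2 a2 l2) :
    Red n g m R a l R2 a2 l2 := by
  obtain ⟨c, h1, h2⟩ := h
  obtain ⟨c', h1', h2'⟩ := h'
  refine ⟨c' + c, fun s hs lam hl => ?_, ?_⟩
  · have := h1 s hs _ (h1' s hs lam hl)
    rwa [add_assoc] at this
  · have := dist_triangle (m a) (m a1) (m a2)
    linarith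

lemma Red.pw {n : ℕ} {g : Geo} {m : ℕ → X} {R a l R1 a1 l1 R' a' l'}
    (h : Red n g m R a l R1 a1 l1) (hp : PW n g m R1 a1 l1 R' a' l') :
    PW n g m R a l R' a' l' := by
  obtain ⟨c, h1, h2⟩ := h
  intro Lam hLam
  have ht := dist_triangle (m a) (m a1) (m a')
  obtain ⟨s, hs, lam, h3, h4⟩ := hp (Lam - c) (by linarith)
  refine ⟨s, hs, lam + c, h1 s hs lam h3, ?_⟩
  have : Lam - (lam + c) = Lam - c - lam := by ring
  rwa [this]

lemma pw_of_red {n : ℕ} {g : Geo} (hg : Valid n g) {m : ℕ → X} {R a l R1 a1 l1 R' a' l' R1' a1' l1'}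
    (h : Red n g m R a l R1 a1 l1) (h' : Red n g m R' a' l' R1' a1' l1')
    (hp : PW n g m R1 a1 l1 R1' a1' l1') : PW n g m R a l R' a' l' :=
  (h'.pw ((h.pw hp).symm hg)).symm hg

/-! ### constraints -/

/-- a constraint at time `n` -/
def Con (n : ℕ) (g : Geo) (R : ℕ → ℝ → Prop) (a : ℕ) (rho loss : ℝ) : Prop :=
  (0 ≤ rho ∧ a ≤ n ∧ R = ActR g n a rho ∧ loss = rho / 300) ∨
  (∃ (F : Geo) (N t0 ts : ℕ) (Rt : ℕ → ℕ → ℝ → Prop), Agree n g F ∧ Valid N F ∧ t0 ≤ N ∧
    IsCS F t0 rho ts a Rt ∧ ts ≤ n ∧ n ≤ t0 ∧ R = Rt n ∧ loss = rho / 600)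

/-- bounds for the needs of a constraint -/
structure Bd (n : ℕ) (g : Geo) (R : ℕ → ℝ → Prop) (a : ℕ) (rho : ℝ) : Prop where
  rho0 : 0 ≤ rho
  a_le : a ≤ n
  le : ∀ u q, R u q → u ≤ n
  low : ∀ u q, R u q → -(rho / 10^4) ≤ q
  far : ∀ u q, R u q → g.D a u - 10^10 * rho ≤ q

lemma bd_act {n : ℕ} {g : Geo} (hg : Valid n g) {a : ℕ} (ha : a ≤ n) {rho : ℝ} (hr : 0 ≤ rho) :
    Bd n g (ActR g n a rho) a rho where
  rho0 := hr
  a_le := ha
  le u q h := h.1
  low u q h := by
    rw [h.2]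
    have h1 := psi_ge1 rho (g.D a u)
    have h2 : 0 ≤ g.D a u / 10^15 := by
      have := D_nonneg hg ha h.1
      positivity
    have h3 : 0 ≤ rho / 10^4 := by positivity
    linarith
  far u q h := by
    rw [h.2]
    have h1 := psi_ge2 rho (g.D a u)
    nlinarith

lemma bd_con {n : ℕ} {g : Geo} (hg : Valid n g) {R a rho loss} (h : Con n g R a rho loss) :
    Bd n g R a rho := by
  rcases h with ⟨hr, ha, rfl, -⟩ | ⟨F, N, t0, ts, Rt, hag, -, hN, hcs, hts, hn, rfl, -⟩
  · exact bd_act hg ha hr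
  · have haN : a ≤ n := hcs.w_le.trans hts
    refine ⟨hcs.rho_pos.le, haN, fun u q h => hcs.Rle n hts hn u q h,
      fun u q h => hcs.Rlow n hts hn u q h, fun u q h => ?_⟩
    rw [hag.D a haN u (hcs.Rle n hts hn u q h)]
    exact hcs.Rfar n hts hn u q h

lemma loss_con {n : ℕ} {g : Geo} {R a rho loss} (h : Con n g R a rho loss) (hr : 0 ≤ rho) :
    rho / 600 ≤ loss := by
  rcases h with ⟨_, _, _, rfl⟩ | ⟨F, N, t0, ts, Rt, _, _, _, _, _, _, _, rfl⟩
  · linarith
  · exact le_rfl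

/-- labels are Lipschitz -/
def Lab (n : ℕ) (g : Geo) (m : ℕ → X) : Prop :=
  ∀ k ≤ n, ∀ l ≤ n, dist (m k) (m l) ≤ g.D k l / 10^15

/-- near pairs are satisfied by a flat functional -/
lemma near_pw {n : ℕ} {g : Geo} (hg : Valid n g) {m : ℕ → X} (hm : Lab n g m)
    {R a rho l R' a' rho' l'} (h : Bd n g R a rho) (h' : Bd n g R' a' rho')
    (hl : rho / 600 ≤ l) (hl' : rho' / 600 ≤ l')
    (hD : g.D a a' ≤ 2 * 10^10 * (rho + rho')) : PW n g m R a l R' a' l' := by
  intro Lam hLam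
  obtain ⟨s, hs, hfl⟩ := exists_flat hg
  have hd := hm a h.a_le a' h'.a_le
  have hd' : g.D a a' / 10^15 ≤ (2 * 10^10 * (rho + rho')) / 10^15 :=
    div_le_div_of_nonneg_right hD (by norm_num)
  have e1 : (2 * 10^10 * (rho + rho')) / 10^15 = (rho + rho') * (2 / 10^5) := by ring
  rw [e1] at hd'
  have hr := h.rho0
  have hr' := h'.rho0
  -- the basic estimate for one side
  have key : ∀ {R : ℕ → ℝ → Prop} {a : ℕ} {rho : ℝ}, Bd n g R a rho → ∀ u q, R u q →
      ∀ x : ℝ, |x| ≤ g.D a u / 10^15 → -(rho * (12 / 10^5)) ≤ x + q := by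
    intro R a rho hb u q hq x hx
    have h1 := hb.low u q hq
    have h2 := hb.far u q hq
    have h3 := D_nonneg hg hb.a_le (hb.le u q hq)
    have h4 := (abs_le.mp hx).1
    have h5 := hb.rho0
    by_cases hc : g.D a u ≤ 2 * 10^10 * rho
    · have h6 : g.D a u / 10^15 ≤ (2 * 10^10 * rho) / 10^15 :=
        div_le_div_of_nonneg_right hc (by norm_num)
      have e2 : (2 * 10^10 * rho) / 10^15 = rho * (2 / 10^5) := by ring
      rw [e2] at h6
      have e3 : rho / 10^4 = rho * (10/10^5) := by ring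
      rw [e3] at h1
      nlinarith
    · push Not at hc
      have h7 : g.D a u / 10^15 ≤ g.D a u / 2 := by
        apply div_le_div_of_nonneg_left h3 (by norm_num) (by norm_num)
      nlinarith
  refine ⟨s, hs, s a - rho * (12 / 10^5), ?_, ?_⟩
  · intro u q hq
    have := key h u q hq (s u - s a) (by
      rw [abs_sub_comm]
      exact hfl a h.a_le u (h.le u q hq))
    linarith
  · intro u q hq
    have h1 := key h' u q hq (s a' - s u) (hfl a' h'.a_le u (h'.le u q hq))
    have h2 := (abs_le.mp (hfl a h.a_le a' h'.a_le)).1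
    simp only [Pi.neg_apply]
    have e4 : rho / 600 = rho * (1/600) := by ring
    have e5 : rho' / 600 = rho' * (1/600) := by ring
    rw [e4] at hl
    rw [e5] at hl'
    nlinarith

/-- flat functionals and two actual constraints at the same centre -/
lemma act_act {n : ℕ} {g : Geo} (hg : Valid n g) {m : ℕ → X} {a : ℕ} (ha : a ≤ n) (r r' : ℝ) :
    PW n g m (ActR g n a r) a 0 (ActR g n a r') a 0 := by
  intro Lam hLam
  obtain ⟨s, hs, hfl⟩ := exists_flat hg
  rw [dist_self] at hLam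
  refine ⟨s, hs, s a, ?_, ?_⟩
  · rintro u q ⟨hu, rfl⟩
    have h1 := (abs_le.mp (hfl a ha u hu)).2
    have h2 := psi_ge1 r (g.D a u)
    linarith
  · rintro u q ⟨hu, rfl⟩
    have h1 := (abs_le.mp (hfl a ha u hu)).1
    have h2 := psi_ge1 r' (g.D a u)
    simp only [Pi.neg_apply]
    linarith

/-! ### old constraints and their persistence -/

/-- a constraint `(R,a)` at time `n` which becomes `(R',a)` at time `n+1` -/
structure Old (n : ℕ) (g : Geo) (R R' : ℕ → ℝ → Prop) (a : ℕ) (rho loss : ℝ) : Prop where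
  con : Con n g R a rho loss
  bd : Bd n g R a rho
  bd' : Bd (n+1) g R' a rho
  loss_ge : rho / 600 ≤ loss
  A : g.isA (n+1) → ∀ s ∈ g.S (n+1), ∀ lam, Sat s lam R → Sat s lam R'
  B1 : ¬ g.isA (n+1) → ∀ s ∈ g.S n, ∀ lam, Sat s lam R → ∀ u ≤ n, ∀ q, R' u q → lam ≤ s u + q
  B2 : ¬ g.isA (n+1) → ∀ s ∈ g.S n, ∀ lam, Sat s lam R → ∀ q, R' (n+1) q → ∀ l ≤ n,
    lam ≤ s l + g.D (n+1) l + q

lemma old_act {n : ℕ} {g : Geo} (hg : Valid (n+1) g) {v : ℕ} (hv : v ≤ n) {rho : ℝ}
    (hr : 0 ≤ rho) : Old n g (ActR g n v rho) (ActR g (n+1) v rho) v rho (rho / 300) where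
  con := Or.inl ⟨hr, hv, rfl, rfl⟩
  bd := bd_act (Valid.mono hg (Nat.le_succ n)) hv hr
  bd' := bd_act hg (hv.trans (Nat.le_succ n)) hr
  loss_ge := by linarith
  A hA s hs lam hsat := by
    rintro u q ⟨hu, rfl⟩
    rcases Nat.lt_or_ge u (n+1) with hu' | hu'
    · exact hsat u _ ⟨by omega, rfl⟩
    · have : u = n+1 := by omega
      subst this
      obtain ⟨l, hl, hD⟩ := hg.A_eq n (Nat.lt_succ_self n) hA v hv
      have h1 := hg.A_flat n (Nat.lt_succ_self n) hA s hs l hl
      have h2 := hsat l _ ⟨hl, rfl⟩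
      have hP : 0 ≤ g.P (n+1) l := by
        have := abs_nonneg (s (n+1) - s l)
        have h3 : 0 ≤ g.P (n+1) l / 10^15 := this.trans h1
        by_contra hneg
        push Not at hneg
        have : g.P (n+1) l / 10^15 < 0 := div_neg_of_neg_of_pos hneg (by norm_num)
        linarith
      have h4 := psi_add (r := rho) (d := g.D l v) hP
      have h5 : g.D v (n+1) = g.P (n+1) l + g.D l v := by
        rw [hg.D_symm v (by omega) (n+1) le_rfl, hD]
      have h6 : g.D v l = g.D l v := hg.D_symm v (by omega) l (by omega)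
      rw [h5]
      rw [h6] at h2
      have := (abs_le.mp h1).1
      linarith
  B1 hB s hs lam hsat u hu q hq := by
    obtain ⟨_, rfl⟩ := hq
    exact hsat u _ ⟨hu, rfl⟩
  B2 hB s hs lam hsat q hq l hl := by
    obtain ⟨_, rfl⟩ := hq
    have h2 := hsat l _ ⟨hl, rfl⟩
    have h3 := hg.D_tri v (by omega) (n+1) le_rfl l (by omega)
    have h4 := D_nonneg hg le_rfl (show l ≤ n+1 by omega)
    have h5 := psi_lip (r := rho) h4 h3
    linarith

lemma old_virt {n : ℕ} {g : Geo} (hg : Valid (n+1) g) {F : Geo} {N t0 ts a : ℕ}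
    {rho : ℝ} {Rt : ℕ → ℕ → ℝ → Prop} (hag : Agree (n+1) g F) (hF : Valid N F) (hN : t0 ≤ N)
    (hcs : IsCS F t0 rho ts a Rt) (hts : ts ≤ n) (hn : n + 1 ≤ t0) :
    Old n g (Rt n) (Rt (n+1)) a rho (rho / 600) := by
  have hcon : Con n g (Rt n) a rho (rho/600) :=
    Or.inr ⟨F, N, t0, ts, Rt, Agree.mono hag (Nat.le_succ n), hF, hN, hcs, hts, by omega, rfl, rfl⟩
  have hcon' : Con (n+1) g (Rt (n+1)) a rho (rho/600) :=
    Or.inr ⟨F, N, t0, ts, Rt, hag, hF, hN, hcs, by omega, hn, rfl, rfl⟩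
  refine ⟨hcon, bd_con (Valid.mono hg (Nat.le_succ n)) hcon, bd_con hg hcon', le_rfl, ?_, ?_, ?_⟩
  · intro hA s hs lam hsat
    rw [hag.S (n+1) le_rfl] at hs
    exact hcs.RA n hts (by omega) ((hag.isA (n+1) le_rfl).mp hA) s hs lam hsat
  · intro hB s hs lam hsat u hu q hq
    rw [hag.S n (Nat.le_succ n)] at hs
    exact hcs.RB1 n hts (by omega) (fun h => hB ((hag.isA (n+1) le_rfl).mpr h)) s hs lam hsat u hu q hq
  · intro hB s hs lam hsat q hq l hl
    rw [hag.S n (Nat.le_succ n)] at hs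
    have := hcs.RB2 n hts (by omega) (fun h => hB ((hag.isA (n+1) le_rfl).mpr h)) s hs lam hsat q hq l hl
    rwa [hag.D (n+1) le_rfl l (by omega)]


/-- the extension of a functional to a B-born point -/
lemma upd_mem {n : ℕ} {g : Geo} (hg : Valid (n+1) g) (hB : ¬ g.isA (n+1)) {s : ℕ → ℝ}
    (hs : s ∈ g.S n) {x : ℝ} (hx1 : ∀ l ≤ n, s l - g.D (n+1) l ≤ x)
    (hx2 : ∀ l ≤ n, x ≤ s l + g.D (n+1) l) :
    Function.update s (n+1) x ∈ g.S (n+1) := by
  have hupd : ∀ i ≤ n, Function.update s (n+1) x i = s i := by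
    intro i hi
    rw [Function.update_of_ne (by omega)]
  have hs' : Function.update s (n+1) x ∈ g.S n :=
    hg.S_congr n (by omega) s _ (fun i hi => (hupd i hi).symm) hs
  apply hg.B_ext n (Nat.lt_succ_self n) hB _ hs'
  intro l hl
  rw [Function.update_self, hupd l hl, abs_le]
  have h1 := hx1 l hl
  have h2 := hx2 l hl
  constructor <;> linarith

/-- the common B-born extension step -/
lemma B_extend {n : ℕ} {g : Geo} (hg : Valid (n+1) g) (hB : ¬ g.isA (n+1)) {s : ℕ → ℝ}
    (hs : s ∈ g.S n) {L U : Set ℝ}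
    (h1 : ∀ x ∈ L, ∀ l ≤ n, x ≤ s l + g.D (n+1) l)
    (h2 : ∀ y ∈ U, ∀ l ≤ n, s l - g.D (n+1) l ≤ y)
    (h3 : ∀ x ∈ L, ∀ y ∈ U, x ≤ y) :
    ∃ s' ∈ g.S (n+1), (∀ i ≤ n, s' i = s i) ∧ (∀ x ∈ L, x ≤ s' (n+1)) ∧
      (∀ y ∈ U, s' (n+1) ≤ y) := by
  obtain ⟨x, hx1, hx2⟩ := exists_mid
    (A := {x | ∃ l ≤ n, x = s l - g.D (n+1) l} ∪ L)
    (B := {x | ∃ l ≤ n, x = s l + g.D (n+1) l} ∪ U)
    ⟨_, Or.inl ⟨0, Nat.zero_le _, rfl⟩⟩ ⟨_, Or.inl ⟨0, Nat.zero_le _, rfl⟩⟩ (by
      rintro a (⟨l, hl, rfl⟩ | ha) b (⟨k, hk, rfl⟩ | hb)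
      · have h4 := hg.S_lip n (Nat.le_succ n) s hs l hl k hk
        have h5 := hg.D_tri l (by omega) (n+1) le_rfl k (by omega)
        have h6 := hg.D_symm l (by omega) (n+1) le_rfl
        linarith
      · exact h2 b hb l hl
      · exact h1 a ha k hk
      · exact h3 a ha b hb)
  refine ⟨Function.update s (n+1) x, ?_, ?_, ?_, ?_⟩
  · exact upd_mem hg hB hs (fun l hl => hx1 _ (Or.inl ⟨l, hl, rfl⟩))
      (fun l hl => hx2 _ (Or.inl ⟨l, hl, rfl⟩))
  · intro i hi
    rw [Function.update_of_ne (by omega)]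
  · intro y hy
    rw [Function.update_self]
    exact hx1 y (Or.inr hy)
  · intro y hy
    rw [Function.update_self]
    exact hx2 y (Or.inr hy)

/-- old pairs persist -/
lemma old_old {n : ℕ} {g : Geo} (hg : Valid (n+1) g) {m : ℕ → X} (hm : Lab (n+1) g m)
    {R R' a rho l T T' a2 rho2 l2} (o : Old n g R R' a rho l) (o2 : Old n g T T' a2 rho2 l2)
    (hp : PW n g m R a l T a2 l2) : PW (n+1) g m R' a l T' a2 l2 := by
  by_cases hD : g.D a a2 ≤ 2 * 10^10 * (rho + rho2)
  · exact near_pw hg hm o.bd' o2.bd' o.loss_ge o2.loss_ge hD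
  push Not at hD
  intro Lam hLam
  obtain ⟨s, hs, lam, h1, h2⟩ := hp Lam hLam
  have hneg := hg.S_neg n (Nat.le_succ n) s hs
  by_cases hA : g.isA (n+1)
  · obtain ⟨s', hs', he⟩ := hg.A_ext n (Nat.lt_succ_self n) hA s hs
    have hneg' := hg.S_neg (n+1) le_rfl s' hs'
    refine ⟨s', hs', lam, o.A hA s' hs' lam ?_, o2.A hA _ hneg' _ ?_⟩
    · intro u q hq
      rw [he u (o.bd.le u q hq)]
      exact h1 u q hq
    · intro u q hq
      have := h2 u q hq
      simp only [Pi.neg_apply] at this ⊢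
      rw [he u (o2.bd.le u q hq)]
      exact this
  · -- the cap
    have hcap : ∀ q q', R' (n+1) q → T' (n+1) q' → Lam ≤ q + q' := by
      intro q q' hq hq'
      have h3 := o.bd'.far _ _ hq
      have h4 := o2.bd'.far _ _ hq'
      have h5 := hg.D_tri a (by have := o.bd.a_le; omega) (n+1) le_rfl a2
        (by have := o2.bd.a_le; omega)
      have h6 := hg.D_symm a2 (by have := o2.bd.a_le; omega) (n+1) le_rfl
      have h7 := hm a (by have := o.bd.a_le; omega) a2 (by have := o2.bd.a_le; omega)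
      have h8 := D_nonneg hg (show a ≤ n+1 by have := o.bd.a_le; omega)
        (show a2 ≤ n+1 by have := o2.bd.a_le; omega)
      have h9 : g.D a a2 / 10^15 ≤ g.D a a2 / 2 := by
        apply div_le_div_of_nonneg_left h8 (by norm_num) (by norm_num)
      have h10 := o.loss_ge
      have h11 := o2.loss_ge
      have h12 := o.bd.rho0
      have h13 := o2.bd.rho0
      have h14 : 0 ≤ rho/600 := by positivity
      have h15 : 0 ≤ rho2/600 := by positivity
      nlinarith
    obtain ⟨s', hs', he, hx1, hx2⟩ := B_extend hg hA hs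
      (L := {x | ∃ q, R' (n+1) q ∧ x = lam - q})
      (U := {x | ∃ q, T' (n+1) q ∧ x = q - (Lam - lam)})
      (by
        rintro x ⟨q, hq, rfl⟩ l' hl'
        have := o.B2 hA s hs lam h1 q hq l' hl'
        linarith)
      (by
        rintro y ⟨q, hq, rfl⟩ l' hl'
        have := o2.B2 hA _ hneg _ h2 q hq l' hl'
        simp only [Pi.neg_apply] at this
        linarith)
      (by
        rintro x ⟨q, hq, rfl⟩ y ⟨q', hq', rfl⟩
        have := hcap q q' hq hq'
        linarith)
    refine ⟨s', hs', lam, ?_, ?_⟩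
    · intro u q hq
      have hu := o.bd'.le u q hq
      rcases Nat.lt_or_ge u (n+1) with hu' | hu'
      · rw [he u (by omega)]
        exact o.B1 hA s hs lam h1 u (by omega) q hq
      · have : u = n+1 := by omega
        subst this
        have := hx1 _ ⟨q, hq, rfl⟩
        linarith
    · intro u q hq
      have hu := o2.bd'.le u q hq
      simp only [Pi.neg_apply]
      rcases Nat.lt_or_ge u (n+1) with hu' | hu'
      · rw [he u (by omega)]
        have := o2.B1 hA _ hneg _ h2 u (by omega) q hq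
        simpa using this
      · have : u = n+1 := by omega
        subst this
        have := hx2 _ ⟨q, hq, rfl⟩
        linarith

/-- the founder lemma: base constraints at a B-born point are lossless -/
lemma founder {n : ℕ} {g : Geo} (hg : Valid (n+1) g) (hB : ¬ g.isA (n+1)) {m : ℕ → X}
    (hm : Lab (n+1) g m) {r : ℝ} (hr : 0 ≤ r) (h4 : ∀ l ≤ n, 4 * r ≤ g.D (n+1) l)
    {R R' a rho l} (o : Old n g R R' a rho l)
    (hp : ∀ v ≤ n, ∀ r' : ℝ, 0 ≤ r' → PW n g m (ActR g n v r') v (r'/300) R a l) :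
    PW (n+1) g m (ActR g (n+1) (n+1) r) (n+1) 0 R' a l := by
  intro Lam hLam
  obtain ⟨q0, hq0, hmin⟩ : ∃ q0 ≤ n, ∀ k ≤ n, g.D (n+1) q0 ≤ g.D (n+1) k := by
    obtain ⟨q0, hq0, hmin⟩ := Finset.exists_min_image (Finset.range (n+1)) (fun k => g.D (n+1) k)
      ⟨0, by simp⟩
    refine ⟨q0, by simpa [Nat.lt_succ_iff] using hq0, fun k hk => hmin k (by simpa using Nat.lt_succ_of_le hk)⟩
  set r0 := g.D (n+1) q0 with hr0
  have hr00 : 0 ≤ r0 := D_nonneg hg le_rfl (by omega)
  have hrr : 4 * r ≤ r0 := h4 q0 hq0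
  have hq0n : dist (m (n+1)) (m q0) ≤ r0 / 10^15 := hm (n+1) le_rfl q0 (by omega)
  have hal := o.bd.a_le
  have htri := dist_triangle (m (n+1)) (m q0) (m a)
  obtain ⟨s, hs, lam, h1, h2⟩ := hp q0 hq0 (2*r0) (by linarith) (Lam - (2*r0/300 + r0/10^15))
    (by linarith)
  have hneg := hg.S_neg n (Nat.le_succ n) s hs
  -- the geometric estimate
  have hgeo : ∀ k ≤ n, Psi (2*r0) (g.D q0 k) ≤ g.D (n+1) k - r0 * (1 - 2/10^15) := by
    intro k hk
    have h5 := hg.D_tri q0 (by omega) (n+1) le_rfl k (by omega)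
    have h6 := hg.D_symm q0 (by omega) (n+1) le_rfl
    have h7 := hmin k hk
    apply psi_le
    · have h8 : g.D q0 k / 10^15 ≤ (r0 + g.D (n+1) k) / 10^15 := by
        apply div_le_div_of_nonneg_right (by linarith) (by norm_num)
      have h9 : (r0 + g.D (n+1) k) / 10^15 = r0 * (1/10^15) + g.D (n+1) k * (1/10^15) := by ring
      rw [h9] at h8
      nlinarith
    · nlinarith
  have hlow : ∀ k ≤ n, lam + r0 * (1 - 2/10^15) ≤ s k + g.D (n+1) k := by
    intro k hk
    have h5 := h1 k _ ⟨hk, rfl⟩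
    have h6 := hgeo k hk
    linarith
  have hcap : ∀ q, R' (n+1) q → Lam ≤ q := by
    intro q hq
    have h5 := o.bd'.far _ _ hq
    have h6 := o.bd'.low _ _ hq
    have h7 := hm (n+1) le_rfl a (by omega)
    have h8 := hg.D_symm a (by omega) (n+1) le_rfl
    have h9 := D_nonneg hg le_rfl (show a ≤ n+1 by omega)
    have h10 := o.loss_ge
    have h11 := o.bd.rho0
    by_cases hc : g.D (n+1) a ≤ 2 * 10^10 * rho
    · have h12 : g.D (n+1) a / 10^15 ≤ (2 * 10^10 * rho) / 10^15 :=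
        div_le_div_of_nonneg_right hc (by norm_num)
      have e2 : (2 * 10^10 * rho) / 10^15 = rho * (2 / 10^5) := by ring
      rw [e2] at h12
      have e3 : rho / 10^4 = rho * (1/10^4) := by ring
      have e4 : rho / 600 = rho * (1/600) := by ring
      rw [e3] at h6
      rw [e4] at h10
      nlinarith
    · push Not at hc
      have h12 : g.D (n+1) a / 10^15 ≤ g.D (n+1) a / 2 := by
        apply div_le_div_of_nonneg_left h9 (by norm_num) (by norm_num)
      have h14 : 0 ≤ rho/600 := by positivity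
      nlinarith
  obtain ⟨s', hs', he, hx1, hx2⟩ := B_extend hg hB hs
    (L := {lam + (2*r0/300 + r0/10^15)})
    (U := {x | ∃ q, R' (n+1) q ∧ x = q - (Lam - (lam + (2*r0/300 + r0/10^15)))})
    (by
      rintro x rfl k hk
      have := hlow k hk
      nlinarith)
    (by
      rintro y ⟨q, hq, rfl⟩ k hk
      have := o.B2 hB _ hneg _ h2 q hq k hk
      simp only [Pi.neg_apply] at this
      linarith)
    (by
      rintro x rfl y ⟨q, hq, rfl⟩
      have := hcap q hq
      linarith)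
  refine ⟨s', hs', lam + (2*r0/300 + r0/10^15), ?_, ?_⟩
  · rintro u q ⟨hu, rfl⟩
    rcases Nat.lt_or_ge u (n+1) with hu' | hu'
    · rw [he u (by omega)]
      have h5 := h1 u _ ⟨by omega, rfl⟩
      have h6 := hgeo u (by omega)
      have h7 := psi_ge2 r (g.D (n+1) u)
      nlinarith
    · have : u = n+1 := by omega
      subst this
      have h5 := hx1 _ rfl
      have h6 := psi_ge1 r (g.D (n+1) (n+1))
      rw [hg.D_self (n+1) le_rfl] at h6 ⊢
      linarith
  · intro u q hq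
    have hu := o.bd'.le u q hq
    simp only [Pi.neg_apply]
    rcases Nat.lt_or_ge u (n+1) with hu' | hu'
    · rw [he u (by omega)]
      have := o.B1 hB _ hneg _ h2 u (by omega) q hq
      simp only [Pi.neg_apply] at this
      linarith
    · have : u = n+1 := by omega
      subst this
      have := hx2 _ ⟨q, hq, rfl⟩
      linarith

/-! ### reductions at time `n+1` -/

/-- base constraints: `(n+1, r)` with `r = 0` or a founder -/
def BaseR (n : ℕ) (g : Geo) (r : ℝ) : Prop :=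
  0 ≤ r ∧ (r = 0 ∨ (¬ g.isA (n+1) ∧ ∀ l ≤ n, 4 * r ≤ g.D (n+1) l))

/-- core constraints: old or base -/
def Core (n : ℕ) (g : Geo) (R' : ℕ → ℝ → Prop) (a : ℕ) (l : ℝ) : Prop :=
  (∃ R rho, Old n g R R' a rho l) ∨
  (∃ r, BaseR n g r ∧ R' = ActR g (n+1) (n+1) r ∧ a = n+1 ∧ l = 0)

/-- reducible to a core constraint -/
def RedCore (n : ℕ) (g : Geo) (m : ℕ → X) (R : ℕ → ℝ → Prop) (a : ℕ) (l : ℝ) : Prop :=
  ∃ R1 a1 l1, Core n g R1 a1 l1 ∧ Red (n+1) g m R a l R1 a1 l1

lemma newAct (hT4 : StmtT4) {n : ℕ} {g : Geo} (hg : Valid (n+1) g) {m : ℕ → X}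
    (hm : Lab (n+1) g m) {r : ℝ} (hr : 0 ≤ r) :
    RedCore n g m (ActR g (n+1) (n+1) r) (n+1) (r/300) := by
  rcases hr.eq_or_lt with h0 | hpos
  · subst h0
    refine ⟨_, _, _, Or.inr ⟨0, ⟨le_rfl, Or.inl rfl⟩, rfl, rfl, rfl⟩, ?_⟩
    refine ⟨0, fun s _ lam h => by simpa using h, by simp⟩
  · obtain ⟨ts, w, R, hcs⟩ := hT4 g (n+1) hg (n+1) le_rfl r hpos
    have hred : ∀ s ∈ g.S (n+1), ∀ lam, Sat s lam (R (n+1)) →
        Sat s lam (ActR g (n+1) (n+1) r) := by
      rintro s _ lam h u q ⟨hu, rfl⟩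
      obtain ⟨q, hq, hR⟩ := hcs.R0 u hu
      have := h u q hR
      linarith
    rcases Nat.lt_or_ge ts (n+1) with hts | hts
    · have hold := old_virt hg (Agree.refl (n+1) g) hg le_rfl hcs (by omega) le_rfl
      refine ⟨_, _, _, Or.inl ⟨_, _, hold⟩, ⟨0, fun s hs lam h => by
        rw [add_zero]; exact hred s hs lam h, ?_⟩⟩
      have hw : w ≤ n := hcs.w_le.trans (by omega)
      have h1 := hm (n+1) le_rfl w (by omega)
      have h2 := hcs.R5
      have h3 : g.D (n+1) w / 10^15 ≤ (10^10 * r) / 10^15 :=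
        div_le_div_of_nonneg_right h2 (by norm_num)
      have e2 : (10^10 * r) / 10^15 = r * (1 / 10^5) := by ring
      rw [e2] at h3
      have e3 : r / 600 = r * (1/600) := by ring
      have e4 : r / 300 = r * (1/300) := by ring
      rw [e3, e4]
      nlinarith
    · have hts' : ts = n+1 := le_antisymm hcs.ts_le hts
      subst hts'
      obtain ⟨r', gam, hr', hest, halt, hend⟩ := hcs.R4
      obtain ⟨hw, hend2⟩ := hend rfl
      clear hend
      subst hw
      have hest' : ∀ s ∈ g.S (n+1), ∀ lam, Sat s lam (ActR g (n+1) (n+1) r') →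
          Sat s (lam + gam) (ActR g (n+1) (n+1) r) :=
        fun s hs lam h => hred s hs _ (hest s hs lam h)
      rcases hend2 with h0 | ⟨_, hB, hf, hgam⟩
      · subst h0
        refine ⟨_, _, _, Or.inr ⟨0, ⟨le_rfl, Or.inl rfl⟩, rfl, rfl, rfl⟩, gam, hest', ?_⟩
        rw [dist_self]
        rcases halt with h | ⟨_, _, _, _, h⟩
        · linarith
        · linarith
      · refine ⟨_, _, _, Or.inr ⟨r', ⟨hr', Or.inr ⟨hB, fun l hl => hf l (by omega)⟩⟩, rfl, rfl, rfl⟩,
          gam, hest', ?_⟩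
        rw [dist_self]
        linarith

lemma redCore_trans {n : ℕ} {g : Geo} {m : ℕ → X} {R a l R1 a1 l1}
    (h : Red (n+1) g m R a l R1 a1 l1) (h' : RedCore n g m R1 a1 l1) : RedCore n g m R a l := by
  obtain ⟨R2, a2, l2, hc, hr⟩ := h'
  exact ⟨R2, a2, l2, hc, h.trans hr⟩

lemma actR_agree {n : ℕ} {g F : Geo} (h : Agree n g F) {w : ℕ} (hw : w ≤ n) (r : ℝ) :
    ActR F n w r = ActR g n w r := by
  funext u q
  apply propext
  constructor
  · rintro ⟨hu, rfl⟩
    exact ⟨hu, by rw [h.D w hw u hu]⟩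
  · rintro ⟨hu, rfl⟩
    exact ⟨hu, by rw [h.D w hw u hu]⟩

lemma anyAct (hT4 : StmtT4) {n : ℕ} {g : Geo} (hg : Valid (n+1) g) {m : ℕ → X}
    (hm : Lab (n+1) g m) {r : ℝ} (hr : 0 ≤ r) {v : ℕ} (hv : v ≤ n+1) :
    RedCore n g m (ActR g (n+1) v r) v (r/300) := by
  rcases Nat.lt_or_ge v (n+1) with h | h
  · exact ⟨_, _, _, Or.inl ⟨_, _, old_act hg (by omega) hr⟩, Red.refl _ _ _ _ _ _⟩
  · have : v = n+1 := le_antisymm hv h
    subst this
    exact newAct hT4 hg hm hr

lemma anyCon (hT4 : StmtT4) {n : ℕ} {g : Geo} (hg : Valid (n+1) g) {m : ℕ → X}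
    (hm : Lab (n+1) g m) {R a rho l} (h : Con (n+1) g R a rho l) :
    RedCore n g m R a l := by
  rcases h with ⟨hr, ha, rfl, rfl⟩ | ⟨F, N, t0, ts, Rt, hag, hF, hN, hcs, hts, hn, rfl, rfl⟩
  · exact anyAct hT4 hg hm hr ha
  · rcases Nat.lt_or_ge ts (n+1) with h | h
    · exact ⟨_, _, _, Or.inl ⟨_, _, old_virt hg hag hF hN hcs (by omega) hn⟩,
        Red.refl _ _ _ _ _ _⟩
    · have hts' : ts = n+1 := le_antisymm hts h
      subst hts'
      obtain ⟨r', gam, hr', hest, halt, -⟩ := hcs.R4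
      have hw := hcs.w_le
      have hest' : ∀ s ∈ g.S (n+1), ∀ lam, Sat s lam (ActR g (n+1) a r') →
          Sat s (lam + gam) (Rt (n+1)) := by
        intro s hs lam h
        rw [hag.S (n+1) le_rfl] at hs
        rw [← actR_agree hag hw] at h
        exact hest s hs lam h
      rcases halt with h1 | ⟨hwt, _, hB, hf, hgam⟩
      · apply redCore_trans (R1 := ActR g (n+1) a r') (a1 := a) (l1 := r'/300) _
          (anyAct hT4 hg hm hr' hw)
        refine ⟨gam, hest', ?_⟩
        rw [dist_self]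
        linarith
      · subst hwt
        refine ⟨_, _, _, Or.inr ⟨r', ⟨hr', Or.inr ⟨fun hA => hB ((hag.isA _ le_rfl).mp hA),
          fun l hl => ?_⟩⟩, rfl, rfl, rfl⟩, gam, hest', ?_⟩
        · rw [hag.D _ le_rfl l (by omega)]
          exact hf l (by omega)
        · rw [dist_self]
          linarith


/-! ### the invariant -/

/-- the invariant of the game -/
def Good (n : ℕ) (g : Geo) (m : ℕ → X) : Prop :=
  (∀ k ≤ n, g.D k k = 0) ∧ Lab n g m ∧
  ∀ R a rho l R' a' rho' l', Con n g R a rho l → Con n g R' a' rho' l' → PW n g m R a l R' a' l'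

lemma con_agree {n : ℕ} {g g' : Geo} (h : Agree n g g') {R a rho l} (hc : Con n g R a rho l) :
    Con n g' R a rho l := by
  rcases hc with ⟨hr, ha, rfl, rfl⟩ | ⟨F, N, t0, ts, Rt, hag, hF, hN, hcs, hts, hn, rfl, rfl⟩
  · exact Or.inl ⟨hr, ha, (actR_agree (Agree.symm' h) ha rho), rfl⟩
  · exact Or.inr ⟨F, N, t0, ts, Rt, Agree.trans' (Agree.symm' h) hag, hF, hN, hcs, hts, hn, rfl, rfl⟩

lemma con_a_le {n : ℕ} {g : Geo} {R a rho l} (hc : Con n g R a rho l) : a ≤ n := by
  rcases hc with ⟨_, ha, _⟩ | ⟨F, N, t0, ts, Rt, _, _, _, hcs, hts, _⟩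
  · exact ha
  · exact hcs.w_le.trans hts

lemma good_agree {n : ℕ} {g g' : Geo} {m m' : ℕ → X} (h : Agree n g g')
    (hm : ∀ i ≤ n, m i = m' i) (hG : Good n g m) : Good n g' m' := by
  obtain ⟨h0, h1, h2⟩ := hG
  refine ⟨fun k hk => ?_, fun k hk l hl => ?_, ?_⟩
  · rw [← h.D k hk k hk]
    exact h0 k hk
  · rw [← h.D k hk l hl, ← hm k hk, ← hm l hl]
    exact h1 k hk l hl
  · intro R a rho l R' a' rho' l' hc hc' Lam hLam
    have hc2 := con_agree (Agree.symm' h) hc
    have hc2' := con_agree (Agree.symm' h) hc'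
    rw [← hm a (con_a_le hc), ← hm a' (con_a_le hc')] at hLam
    obtain ⟨s, hs, lam, h3, h4⟩ := h2 R a rho l R' a' rho' l' hc2 hc2' Lam hLam
    rw [h.S n le_rfl] at hs
    exact ⟨s, hs, lam, h3, h4⟩

lemma good_zero {g : Geo} (hg : Valid 0 g) (m : ℕ → X) : Good 0 g m := by
  have hLab : Lab 0 g m := by
    intro k hk l hl
    have hk0 : k = 0 := by omega
    have hl0 : l = 0 := by omega
    subst hk0 hl0
    rw [dist_self, hg.D_self 0 le_rfl]
    norm_num
  refine ⟨fun k hk => hg.D_self k hk, hLab, ?_⟩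
  intro R a rho l R' a' rho' l' hc hc'
  have hb := bd_con hg hc
  have hb' := bd_con hg hc'
  apply near_pw hg hLab hb hb' (loss_con hc hb.rho0) (loss_con hc' hb'.rho0)
  have ha : a = 0 := by have := hb.a_le; omega
  have ha' : a' = 0 := by have := hb'.a_le; omega
  subst ha ha'
  rw [hg.D_self 0 le_rfl]
  have h1 := hb.rho0
  have h2 := hb'.rho0
  positivity

lemma good_want {n : ℕ} {g : Geo} {m : ℕ → X} (hG : Good n g m) {k : ℕ} (hk : k ≤ n) {l : ℕ}
    (hl : l ≤ n) {Lam : ℝ} (hLam : Lam < dist (m k) (m l)) : ∃ s ∈ g.S n, Lam ≤ s k - s l := by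
  obtain ⟨h0, h1, h2⟩ := hG
  have hp := h2 _ k 0 0 _ l 0 0 (Or.inl ⟨le_rfl, hk, rfl, by norm_num⟩)
    (Or.inl ⟨le_rfl, hl, rfl, by norm_num⟩)
  obtain ⟨s, hs, lam, h3, h4⟩ := hp Lam (by simpa using hLam)
  refine ⟨s, hs, ?_⟩
  have h5 := h3 k _ ⟨hk, rfl⟩
  have h6 := h4 l _ ⟨hl, rfl⟩
  rw [h0 k hk, psi_zero le_rfl] at h5
  rw [h0 l hl, psi_zero le_rfl] at h6
  simp only [Pi.neg_apply] at h6
  linarith

/-- assembling: if base/old pairs are fine, everything is -/
lemma good_succ (hT4 : StmtT4) {n : ℕ} {g : Geo} (hg : Valid (n+1) g) {m : ℕ → X}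
    (hm : Lab (n+1) g m)
    (hold : ∀ R a rho l R' a' rho' l', Con n g R a rho l → Con n g R' a' rho' l' →
      PW n g m R a l R' a' l')
    (hbase : ∀ r, BaseR n g r → ∀ R R' a rho l, Old n g R R' a rho l →
      PW (n+1) g m (ActR g (n+1) (n+1) r) (n+1) 0 R' a l) : Good (n+1) g m := by
  refine ⟨fun k hk => hg.D_self k hk, hm, ?_⟩
  intro R a rho l R' a' rho' l' hc hc'
  obtain ⟨R1, a1, l1, hcore, hred⟩ := anyCon hT4 hg hm hc
  obtain ⟨R1', a1', l1', hcore', hred'⟩ := anyCon hT4 hg hm hc'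
  apply pw_of_red hg hred hred'
  rcases hcore with ⟨T, rho1, o⟩ | ⟨r, hr, rfl, rfl, rfl⟩
  · rcases hcore' with ⟨T', rho1', o'⟩ | ⟨r', hr', rfl, rfl, rfl⟩
    · exact old_old hg hm o o' (hold _ _ _ _ _ _ _ _ o.con o'.con)
    · exact (hbase r' hr' _ _ _ _ _ o).symm hg
  · rcases hcore' with ⟨T', rho1', o'⟩ | ⟨r', hr', rfl, rfl, rfl⟩
    · exact hbase r hr _ _ _ _ _ o'
    · exact act_act hg le_rfl r r'

lemma good_B (hT4 : StmtT4) {n : ℕ} {g : Geo} (hg : Valid (n+1) g) (hB : ¬ g.isA (n+1))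
    {m : ℕ → X} (hG : Good n g m)
    (hm : ∀ l ≤ n, dist (m (n+1)) (m l) ≤ g.D (n+1) l / 10^15) : Good (n+1) g m := by
  obtain ⟨h0, h1, h2⟩ := hG
  have hLab : Lab (n+1) g m := by
    intro k hk l hl
    rcases Nat.lt_or_ge k (n+1) with hk' | hk'
    · rcases Nat.lt_or_ge l (n+1) with hl' | hl'
      · exact h1 k (by omega) l (by omega)
      · have : l = n+1 := by omega
        subst this
        rw [dist_comm, hg.D_symm k hk (n+1) le_rfl]
        exact hm k (by omega)
    · have : k = n+1 := by omega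
      subst this
      rcases Nat.lt_or_ge l (n+1) with hl' | hl'
      · exact hm l (by omega)
      · have : l = n+1 := by omega
        subst this
        rw [dist_self, hg.D_self (n+1) le_rfl]
        norm_num
  apply good_succ hT4 hg hLab h2
  intro r hr R R' a rho l o
  apply founder hg hB hLab hr.1 ?_ o
  · intro v hv r' hr'
    exact h2 _ v r' _ _ a rho l (Or.inl ⟨hr', hv, rfl, rfl⟩) o.con
  · intro k hk
    rcases hr.2 with h | ⟨_, h⟩
    · subst h
      have := D_nonneg hg le_rfl (show k ≤ n+1 by omega)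
      linarith
    · exact h k hk

lemma good_A (hT4 : StmtT4) (hX : BallProp X) {n : ℕ} {g : Geo} (hg : Valid (n+1) g)
    (hA : g.isA (n+1)) {m : ℕ → X} (hG : Good n g m) :
    ∃ x, Good (n+1) g (Function.update m (n+1) x) := by
  obtain ⟨h0, h1, h2⟩ := hG
  -- the admissible radii
  let B : ℕ → Set ℝ := fun a => {x | x = g.D (n+1) a / 10^15} ∪
    {x | ∃ R R' rho l, Old n g R R' a rho l ∧
      ∀ s ∈ g.S (n+1), ∀ lam', Sat (-s) lam' R' → s (n+1) + lam' + l ≤ x}
  -- one side: constraint against constraint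
  have hcc : ∀ a a' x x' R R' rho l T T' rho' l', Old n g R R' a rho l →
      (∀ s ∈ g.S (n+1), ∀ lam', Sat (-s) lam' R' → s (n+1) + lam' + l ≤ x) →
      Old n g T T' a' rho' l' →
      (∀ s ∈ g.S (n+1), ∀ lam', Sat (-s) lam' T' → s (n+1) + lam' + l' ≤ x') →
      dist (m a) (m a') ≤ x + x' := by
    intro a a' x x' R R' rho l T T' rho' l' o hx o' hx'
    by_contra hcon
    push Not at hcon
    obtain ⟨Lam, hL1, hL2⟩ := exists_between (show x + x' - l - l' < dist (m a) (m a') - l - l' by linarith)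
    obtain ⟨s, hs, lam, h3, h4⟩ := h2 _ a rho l _ a' rho' l' o.con o'.con Lam hL2
    obtain ⟨s', hs', he⟩ := hg.A_ext n (Nat.lt_succ_self n) hA s hs
    have hneg' := hg.S_neg (n+1) le_rfl s' hs'
    have h5 : Sat s' lam R' := by
      apply o.A hA s' hs' lam
      intro u q hq
      rw [he u (o.bd.le u q hq)]
      exact h3 u q hq
    have h6 : Sat (-s') (Lam - lam) T' := by
      apply o'.A hA _ hneg' _
      intro u q hq
      have := h4 u q hq
      simp only [Pi.neg_apply] at this ⊢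
      rw [he u (o'.bd.le u q hq)]
      exact this
    have h7 := hx (-s') hneg' lam (by simpa using h5)
    have h8 := hx' s' hs' (Lam - lam) h6
    simp only [Pi.neg_apply] at h7
    linarith
  -- the other side: constraint against the Lipschitz radii
  have hcd : ∀ a k x R R' rho l, k ≤ n → Old n g R R' a rho l →
      (∀ s ∈ g.S (n+1), ∀ lam', Sat (-s) lam' R' → s (n+1) + lam' + l ≤ x) →
      dist (m k) (m a) ≤ g.D (n+1) k / 10^15 + x := by
    intro a k x R R' rho l hk o hx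
    obtain ⟨j, hj, hD⟩ := hg.A_eq n (Nat.lt_succ_self n) hA k hk
    have h3 := h1 k hk j hj
    have h4 := hg.D_symm k (by omega) j (by omega)
    rw [h4] at h3
    have h5 : dist (m j) (m a) ≤ g.P (n+1) j / 10^15 + x := by
      by_contra hcon
      push Not at hcon
      obtain ⟨Lam, hL1, hL2⟩ := exists_between
        (show g.P (n+1) j / 10^15 + x - l < dist (m j) (m a) - 0 - l by linarith)
      obtain ⟨s, hs, lam, h6, h7⟩ := h2 _ j 0 0 _ a rho l
        (Or.inl ⟨le_rfl, hj, rfl, by norm_num⟩) o.con Lam hL2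
      obtain ⟨s', hs', he⟩ := hg.A_ext n (Nat.lt_succ_self n) hA s hs
      have hneg' := hg.S_neg (n+1) le_rfl s' hs'
      have h8 : Sat (-s') (Lam - lam) R' := by
        apply o.A hA _ hneg' _
        intro u q hq
        have := h7 u q hq
        simp only [Pi.neg_apply] at this ⊢
        rw [he u (o.bd.le u q hq)]
        exact this
      have h9 := hx s' hs' (Lam - lam) h8
      have h10 := h6 j _ ⟨hj, rfl⟩
      rw [h0 j hj, psi_zero le_rfl] at h10
      have h11 := (abs_le.mp (hg.A_flat n (Nat.lt_succ_self n) hA s' hs' j hj)).1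
      rw [he j hj] at h11
      linarith
    have h6 := dist_triangle (m k) (m j) (m a)
    rw [hD, add_div]
    linarith
  have hpair : ∀ a ≤ n, ∀ a' ≤ n, ∀ x ∈ B a, ∀ x' ∈ B a', dist (m a) (m a') ≤ x + x' := by
    rintro a ha a' ha' x (rfl | ⟨R, R', rho, l, o, hx⟩) x' (rfl | ⟨T, T', rho', l', o', hx'⟩)
    · have h3 := h1 a ha a' ha'
      have h4 := hg.D_tri a (by omega) (n+1) le_rfl a' (by omega)
      have h5 := hg.D_symm a (by omega) (n+1) le_rfl
      have h6 : g.D a a' / 10^15 ≤ (g.D (n+1) a + g.D (n+1) a') / 10^15 :=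
        div_le_div_of_nonneg_right (by linarith) (by norm_num)
      rw [add_div] at h6
      linarith
    · exact hcd a' a x' _ _ _ _ ha o' hx'
    · have := hcd a a' x _ _ _ _ ha' o hx
      rw [dist_comm]
      linarith
    · exact hcc _ _ _ _ _ _ _ _ _ _ _ _ o hx o' hx'
  have hne : ∀ a, (B a).Nonempty := fun a => ⟨_, Or.inl rfl⟩
  have hbdd : ∀ a ≤ n, BddBelow (B a) := by
    intro a ha
    refine ⟨0, fun x hx => ?_⟩
    have := hpair a ha a ha x hx x hx
    rw [dist_self] at this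
    linarith
  obtain ⟨y, hy⟩ := hX n m (fun a => sInf (B a)) (by
    intro a ha a' ha'
    have h3 : ∀ x' ∈ B a', dist (m a) (m a') - sInf (B a) ≤ x' := by
      intro x' hx'
      have : dist (m a) (m a') - x' ≤ sInf (B a) :=
        le_csInf (hne a) (fun x hx => by
          have := hpair a ha a' ha' x hx x' hx'
          linarith)
      linarith
    have h4 := le_csInf (hne a') h3
    linarith)
  have hy' : ∀ a ≤ n, ∀ x ∈ B a, dist y (m a) ≤ x := fun a ha x hx =>
    (hy a ha).trans (csInf_le (hbdd a ha) hx)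
  refine ⟨y, ?_⟩
  set m' := Function.update m (n+1) y with hm'
  have he1 : m' (n+1) = y := Function.update_self _ _ _
  have he2 : ∀ i ≤ n, m' i = m i := by
    intro i hi
    rw [hm', Function.update_of_ne (by omega)]
  have hLab : Lab (n+1) g m' := by
    intro k hk l hl
    rcases Nat.lt_or_ge k (n+1) with hk' | hk'
    · rcases Nat.lt_or_ge l (n+1) with hl' | hl'
      · rw [he2 k (by omega), he2 l (by omega)]
        exact h1 k (by omega) l (by omega)
      · have : l = n+1 := by omega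
        subst this
        rw [he1, he2 k (by omega), dist_comm, hg.D_symm k hk (n+1) le_rfl]
        exact hy' k (by omega) _ (Or.inl rfl)
    · have : k = n+1 := by omega
      subst this
      rcases Nat.lt_or_ge l (n+1) with hl' | hl'
      · rw [he1, he2 l (by omega)]
        exact hy' l (by omega) _ (Or.inl rfl)
      · have : l = n+1 := by omega
        subst this
        rw [dist_self, hg.D_self (n+1) le_rfl]
        norm_num
  apply good_succ hT4 hg hLab
  · intro R a rho l R' a' rho' l' hc hc' Lam hLam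
    rw [he2 a (con_a_le hc), he2 a' (con_a_le hc')] at hLam
    exact h2 R a rho l R' a' rho' l' hc hc' Lam hLam
  · intro r hr R R' a rho l o Lam hLam
    have hr0 : r = 0 := by
      rcases hr.2 with h | ⟨h, _⟩
      · exact h
      · exact absurd hA h
    subst hr0
    have ha := o.bd.a_le
    rw [he1, he2 a ha] at hLam
    by_contra hcon
    have hx : Lam + l ∈ B a := by
      refine Or.inr ⟨R, R', rho, l, o, ?_⟩
      intro s hs lam' hsat
      by_contra hlt
      push Not at hlt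
      apply hcon
      refine ⟨s, hs, Lam - lam', ?_, by simpa using hsat⟩
      rintro u q ⟨hu, rfl⟩
      rw [psi_zero (D_nonneg hg le_rfl hu)]
      have := hg.S_lip (n+1) le_rfl s hs (n+1) le_rfl u hu
      linarith
    have := hy' a ha _ hx
    linarith

/-- **T5** (dynamics) from T4 -/
theorem T5_of_T4 (hT4 : StmtT4) {X : Type*} [PseudoMetricSpace X] (hX : BallProp X) :
    ∃ Good : ℕ → Geo → (ℕ → X) → Prop,
      (∀ n g g' m m', Agree n g g' → (∀ i ≤ n, m i = m' i) → Good n g m → Good n g' m') ∧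
      (∀ g m, Valid 0 g → Good 0 g m) ∧
      (∀ n g m, Good n g m → ∀ k ≤ n, ∀ l ≤ n, dist (m k) (m l) ≤ g.D k l / 10^15) ∧
      (∀ n g m, Good n g m → ∀ k ≤ n, ∀ l ≤ n, ∀ Lam < dist (m k) (m l),
        ∃ s ∈ g.S n, Lam ≤ s k - s l) ∧
      (∀ n g m, Valid (n+1) g → g.isA (n+1) → Good n g m →
        ∃ x, Good (n+1) g (Function.update m (n+1) x)) ∧
      (∀ n g m, Valid (n+1) g → ¬ g.isA (n+1) → Good n g m →
        (∀ l ≤ n, dist (m (n+1)) (m l) ≤ g.D (n+1) l / 10^15) → Good (n+1) g m) :=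
  ⟨Good, fun _ _ _ _ _ h hm hG => good_agree h hm hG, fun _ m hg => good_zero hg m,
    fun _ _ _ hG => hG.2.1, fun _ _ _ hG _ hk _ hl _ hLam => good_want hG hk hl hLam,
    fun _ _ _ hg hA hG => good_A hT4 hX hg hA hG,
    fun _ _ _ hg hB hG hm => good_B hT4 hg hB hG hm⟩

end P124H447
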